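import Vale.Agent.P088.H833.JE.Defs
import Vale.Agent.P088.H292.EC
import Vale.Agent.P088.H109.Hdy

/-!
# P088, theorem JE, row JE_ECU: the energies of pairs which converge to `(σ 1, 0)`, `(ψ 1, 0)`
-/

set_option linter.all false

open MeasureTheory Set Filter Topology
open scoped ContDiff Matrix

noncomputable section

namespace Vale.Agent.P088.H168.ECU

open Vale.Agent.P088.LR Vale.Agent.P088.LR.B Vale.Agent.P088.LR.CF Vale.Agent.P088.LR.H158
  Vale.Agent.P088.H639 Vale.Agent.P088.H109.Hdy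

variable {n N : ℕ}

/-- Poincaré inequality on a bounded open set. -/
theorem poin {Ω : Set (V n)} (hO : IsOpen Ω) (hb : Bornology.IsBounded Ω) (j₀ : Fin n) {R : ℝ}
    (hR : ∀ x ∈ Ω, |x j₀| ≤ R) {g : V n → ℝ} (hg : ContDiff ℝ ∞ g)
    (h0 : ∀ x ∈ frontier Ω, g x = 0) :
    ∫ x in Ω, g x ^ 2 ≤ 4 * R ^ 2 * ∫ x in Ω, ∑ j, pd j g x ^ 2 := by
  have hgg : ContDiff ℝ ∞ fun y => g y * g y := hg.mul hg
  have hp : ∀ j, Continuous (pd j g) := fun j => (contDiff_pdG hg j).continuous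
  have hG : ∀ j, ContDiff ℝ ∞ fun x : V n => if j = j₀ then x j₀ else (0 : ℝ) := by
    intro j
    split_ifs
    · exact contDiff_apply ℝ ℝ j₀
    · exact contDiff_const
  have h := flux_real hO hb hG hgg (fun x hx => by rw [h0 x hx, zero_mul])
  have e1 : ∀ x, ∑ j, (if j = j₀ then x j₀ else (0 : ℝ)) * pd j (fun y => g y * g y) x =
      x j₀ * (2 * g x * pd j₀ g x) := by
    intro x
    simp only [ite_mul, zero_mul, Finset.sum_ite_eq', Finset.mem_univ, if_true]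
    rw [pd_mulR hg hg]
    ring
  have e2 : ∀ x, (∑ j, pd j (fun x : V n => if j = j₀ then x j₀ else (0 : ℝ)) x) * (g x * g x) =
      g x ^ 2 := by
    intro x
    have e3 : ∀ j, pd j (fun x : V n => if j = j₀ then x j₀ else (0 : ℝ)) x =
        if j = j₀ then 1 else 0 := by
      intro j
      split_ifs with hj
      · subst hj
        unfold pd
        have h1 : HasFDerivAt (fun x : V n => x j) (ContinuousLinearMap.proj (R := ℝ)
          (φ := fun _ : Fin n => ℝ) j) x := hasFDerivAt_apply j x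
        rw [h1.fderiv]
        simp
      · unfold pd
        simp
    simp only [e3, Finset.sum_ite_eq', Finset.mem_univ, if_true]
    ring
  simp only [e1, e2] at h
  have h4 : ∫ x in Ω, g x ^ 2 = ∫ x in Ω, -(x j₀ * (2 * g x * pd j₀ g x)) := by
    rw [integral_neg, h, neg_neg]
  have c1 : Continuous fun x => g x ^ 2 := hg.continuous.pow 2
  have c2 : Continuous fun x => ∑ j, pd j g x ^ 2 :=
    continuous_finsetSum _ fun j _ => (hp j).pow 2
  have c3 : Continuous fun x => -(x j₀ * (2 * g x * pd j₀ g x)) :=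
    ((continuous_apply j₀).mul ((continuous_const.mul hg.continuous).mul (hp j₀))).neg
  have c1' : Continuous fun x => 1 / 2 * g x ^ 2 := continuous_const.mul c1
  have c2' : Continuous fun x => 2 * R ^ 2 * ∑ j, pd j g x ^ 2 := continuous_const.mul c2
  have c12 : Continuous fun x => 1 / 2 * g x ^ 2 + 2 * R ^ 2 * ∑ j, pd j g x ^ 2 := c1'.add c2'
  have h5 : ∫ x in Ω, -(x j₀ * (2 * g x * pd j₀ g x)) ≤
      ∫ x in Ω, (1 / 2 * g x ^ 2 + 2 * R ^ 2 * ∑ j, pd j g x ^ 2) := by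
    refine setIntegral_mono_on (ion hb c3) (ion hb c12) hO.measurableSet ?_
    intro x hx
    have h6 : pd j₀ g x ^ 2 ≤ ∑ j, pd j g x ^ 2 :=
      Finset.single_le_sum (f := fun j => pd j g x ^ 2) (fun _ _ => sq_nonneg _)
        (Finset.mem_univ j₀)
    have h8 : x j₀ ^ 2 ≤ R ^ 2 := sq_le_sq' (abs_le.1 (hR x hx)).1 (abs_le.1 (hR x hx)).2
    have h9 : x j₀ ^ 2 * pd j₀ g x ^ 2 ≤ R ^ 2 * ∑ j, pd j g x ^ 2 :=
      mul_le_mul h8 h6 (sq_nonneg _) (sq_nonneg _)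
    nlinarith [sq_nonneg (g x + 2 * (x j₀ * pd j₀ g x))]
  rw [← h4, integral_add (ion hb c1') (ion hb c2'), integral_const_mul, integral_const_mul] at h5
  linarith

/-! ### pointwise -/

/-- Square length. -/
def dd (D : Fin n → Fin N → ℂ) : ℝ := ∑ i, ∑ b, ‖D i b‖ ^ 2

theorem dd_nn (D : Fin n → Fin N → ℂ) : 0 ≤ dd D :=
  Finset.sum_nonneg fun i _ => Finset.sum_nonneg fun b _ => sq_nonneg _

theorem nsq (z : ℂ) : ‖z‖ ^ 2 = z.re ^ 2 + z.im ^ 2 := by
  rw [← Complex.normSq_eq_norm_sq, Complex.normSq_apply]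
  ring

theorem qf_near {S : Matrix (Fin n) (Fin n) ℝ} {ψ : V n → ℝ} {x : V n} {δ : ℝ}
    (h : ∀ i j, |S i j - sc ψ x i j| ≤ δ) (D : Fin n → Fin N → ℂ) :
    |(qf S D D).re - ψ x * dd D| ≤ δ * n * dd D := by
  have h1 : dd D = ∑ b, (∑ i, (D i b).re ^ 2 + ∑ i, (D i b).im ^ 2) := by
    unfold dd
    rw [Finset.sum_comm]
    refine Finset.sum_congr rfl fun b _ => ?_
    rw [← Finset.sum_add_distrib]
    exact Finset.sum_congr rfl fun i _ => nsq _
  have h2 : (qf S D D).re = ∑ b, ((∑ i, ∑ j, S i j * (D i b).re * (D j b).re) +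
      ∑ i, ∑ j, S i j * (D i b).im * (D j b).im) := by
    rw [qf_re]
    refine Finset.sum_congr rfl fun b _ => ?_
    congr 1 <;> exact Finset.sum_congr rfl fun i _ => Finset.sum_congr rfl fun j _ => by ring
  rw [h1, h2, Finset.mul_sum, Finset.mul_sum, ← Finset.sum_sub_distrib]
  refine (Finset.abs_sum_le_sum_abs _ _).trans (Finset.sum_le_sum fun b _ => ?_)
  have q1 := H292.EC.quad_near h fun i => (D i b).re
  have q2 := H292.EC.quad_near h fun i => (D i b).im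
  rw [H292.EC.quad_sc] at q1 q2
  have e : ∑ i, ∑ j, S i j * (D i b).re * (D j b).re + ∑ i, ∑ j, S i j * (D i b).im * (D j b).im -
      ψ x * (∑ i, (D i b).re ^ 2 + ∑ i, (D i b).im ^ 2) =
      (∑ i, ∑ j, S i j * (D i b).re * (D j b).re - ψ x * ∑ i, (D i b).re ^ 2) +
      (∑ i, ∑ j, S i j * (D i b).im * (D j b).im - ψ x * ∑ i, (D i b).im ^ 2) := by ring
  rw [e]
  refine (abs_add_le _ _).trans ?_
  calc _ ≤ δ * (n * ∑ i, (D i b).re ^ 2) + δ * (n * ∑ i, (D i b).im ^ 2) := add_le_add q1 q2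
    _ = _ := by ring

theorem young {τ : ℝ} (hτ : 0 < τ) (a b : ℂ) :
    ‖a + b‖ ^ 2 ≤ (1 + τ) * ‖a‖ ^ 2 + (1 + 1 / τ) * ‖b‖ ^ 2 := by
  have h1 : ‖a + b‖ ^ 2 ≤ (‖a‖ + ‖b‖) ^ 2 :=
    pow_le_pow_left₀ (norm_nonneg _) (norm_add_le _ _) 2
  have h2 : 0 ≤ (τ * ‖a‖ - ‖b‖) ^ 2 / τ := by positivity
  have h3 : (τ * ‖a‖ - ‖b‖) ^ 2 / τ = τ * ‖a‖ ^ 2 - 2 * ‖a‖ * ‖b‖ + 1 / τ * ‖b‖ ^ 2 := by
    field_simp
    ring
  nlinarith

theorem mv {P : Matrix (Fin N) (Fin N) ℂ} {δ : ℝ} (h : ∀ a b, ‖P a b‖ ≤ δ) (v : Fin N → ℂ)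
    (b : Fin N) : ‖(P *ᵥ v) b‖ ^ 2 ≤ δ ^ 2 * (N * ∑ c, ‖v c‖ ^ 2) := by
  have h1 : ‖(P *ᵥ v) b‖ ≤ δ * ∑ c, ‖v c‖ := by
    simp only [Matrix.mulVec, dotProduct]
    refine (norm_sum_le _ _).trans ?_
    rw [Finset.mul_sum]
    refine Finset.sum_le_sum fun c _ => ?_
    rw [norm_mul]
    exact mul_le_mul_of_nonneg_right (h b c) (norm_nonneg _)
  have h2 : ‖(P *ᵥ v) b‖ ^ 2 ≤ (δ * ∑ c, ‖v c‖) ^ 2 := pow_le_pow_left₀ (norm_nonneg _) h1 2
  have h3 := sq_sum_le_card_mul_sum_sq (s := (Finset.univ : Finset (Fin N))) (f := fun c => ‖v c‖)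
  rw [mul_pow] at h2
  refine h2.trans (mul_le_mul_of_nonneg_left ?_ (sq_nonneg _))
  simpa using h3

theorem pd_re {u : V n → Fin N → ℂ} (hu : ContDiff ℝ ∞ u) (i : Fin n) (b : Fin N) (x : V n) :
    pd i (fun y => (u y b).re) x = (pd i u x b).re := by
  rw [pd_pi (dfa hu x)]
  exact pd_clm Complex.reCLM (dfa ((contDiff_pi.1 hu) b) x) i

theorem pd_im {u : V n → Fin N → ℂ} (hu : ContDiff ℝ ∞ u) (i : Fin n) (b : Fin N) (x : V n) :
    pd i (fun y => (u y b).im) x = (pd i u x b).im := by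
  rw [pd_pi (dfa hu x)]
  exact pd_clm Complex.imCLM (dfa ((contDiff_pi.1 hu) b) x) i

/-- `f e_{b₀}`. -/
def ev (b₀ : Fin N) (f : V n → ℝ) : V n → Fin N → ℂ := fun x b => if b = b₀ then (f x : ℂ) else 0

theorem ev_cd (b₀ : Fin N) {f : V n → ℝ} (hf : ContDiff ℝ ∞ f) : ContDiff ℝ ∞ (ev b₀ f) := by
  rw [contDiff_pi]
  intro b
  unfold ev
  split_ifs
  · exact cd_ofR hf
  · exact contDiff_const

theorem pd_ev (b₀ : Fin N) {f : V n → ℝ} (hf : ContDiff ℝ ∞ f) (i : Fin n) (x : V n) (b : Fin N) :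
    pd i (ev b₀ f) x b = if b = b₀ then ((pd i f x : ℝ) : ℂ) else 0 := by
  rw [pd_pi (dfa (ev_cd b₀ hf) x)]
  unfold ev
  split_ifs with h
  · exact pd_ofR hf i x
  · exact pd_const _ x i

theorem dd_pd_ev (b₀ : Fin N) {f : V n → ℝ} (hf : ContDiff ℝ ∞ f) (x : V n) :
    dd (fun i => pd i (ev b₀ f) x) = ∑ i, pd i f x ^ 2 := by
  unfold dd
  refine Finset.sum_congr rfl fun i _ => ?_
  rw [Finset.sum_eq_single b₀]
  · show ‖pd i (ev b₀ f) x b₀‖ ^ 2 = _
    rw [pd_ev b₀ hf, if_pos rfl, Complex.norm_real, Real.norm_eq_abs, sq_abs]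
  · intro b _ hb
    show ‖pd i (ev b₀ f) x b‖ ^ 2 = _
    rw [pd_ev b₀ hf, if_neg hb]
    simp
  · intro h
    exact absurd (Finset.mem_univ _) h

/-- Square length of a vector. -/
def ll (v : Fin N → ℂ) : ℝ := ∑ b, ‖v b‖ ^ 2

theorem ll_nn (v : Fin N → ℂ) : 0 ≤ ll v := Finset.sum_nonneg fun b _ => sq_nonneg _

theorem ll_ev (b₀ : Fin N) (f : V n → ℝ) (x : V n) : ll (ev b₀ f x) = f x ^ 2 := by
  unfold ll
  rw [Finset.sum_eq_single b₀]
  · simp [ev]
  · intro b _ hb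
    simp [ev, hb]
  · intro h
    exact absurd (Finset.mem_univ _) h

theorem dd_young {τ c : ℝ} (hτ : 0 < τ) {D D' E : Fin n → Fin N → ℂ}
    (h : ∀ i b, D i b = D' i b + E i b) (hE : ∀ i b, ‖E i b‖ ^ 2 ≤ c) :
    dd D ≤ (1 + τ) * dd D' + (1 + 1 / τ) * (n * (N * c)) := by
  have h1 : 0 < 1 / τ := by positivity
  have h2 : ∀ i b, ‖D i b‖ ^ 2 ≤ (1 + τ) * ‖D' i b‖ ^ 2 + (1 + 1 / τ) * c := by
    intro i b
    rw [h i b]
    refine (young hτ _ _).trans ?_
    have := mul_le_mul_of_nonneg_left (hE i b) (by positivity : (0 : ℝ) ≤ 1 + 1 / τ)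
    linarith
  calc dd D ≤ ∑ i, ∑ b, ((1 + τ) * ‖D' i b‖ ^ 2 + (1 + 1 / τ) * c) :=
        Finset.sum_le_sum fun i _ => Finset.sum_le_sum fun b _ => h2 i b
    _ = _ := by
        simp only [Finset.sum_add_distrib, ← Finset.mul_sum, Finset.sum_const, Finset.card_univ,
          Fintype.card_fin, nsmul_eq_mul]
        unfold dd
        ring

section pt

variable {A : Cn n N} {δ : ℝ} {x : V n} {u : V n → Fin N → ℂ}

theorem dd_up {τ : ℝ} (hτ : 0 < τ) (hA : ∀ i a b, ‖A i x a b‖ ≤ δ) :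
    dd (fun i => cd A i u x) ≤ (1 + τ) * dd (fun i => pd i u x) +
      (1 + 1 / τ) * (n * (N * (δ ^ 2 * (N * ll (u x))))) :=
  dd_young hτ (E := fun i => A i x *ᵥ u x) (fun i b => rfl) fun i b => mv (hA i) _ b

theorem dd_low {τ : ℝ} (hτ : 0 < τ) (hA : ∀ i a b, ‖A i x a b‖ ≤ δ) :
    dd (fun i => pd i u x) ≤ (1 + τ) * dd (fun i => cd A i u x) +
      (1 + 1 / τ) * (n * (N * (δ ^ 2 * (N * ll (u x))))) :=
  dd_young hτ (E := fun i => -(A i x *ᵥ u x)) (fun i b => by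
    simp only [cd, Pi.add_apply, Pi.neg_apply]
    ring) fun i b => by
    rw [Pi.neg_apply, norm_neg]
    exact mv (hA i) _ b

end pt

/-! ### integrals -/

theorem dd_cont {D : V n → Fin n → Fin N → ℂ} (h : ∀ i, Continuous fun x => D x i) :
    Continuous fun x => dd (D x) := by
  unfold dd
  exact continuous_finsetSum _ fun i _ => continuous_finsetSum _ fun b _ =>
    (continuous_norm.comp ((continuous_pi_iff.1 (h i)) b)).pow 2

theorem ll_cont {u : V n → Fin N → ℂ} (h : Continuous u) : Continuous fun x => ll (u x) := by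
  unfold ll
  exact continuous_finsetSum _ fun b _ => (continuous_norm.comp ((continuous_pi_iff.1 h) b)).pow 2

theorem pd_cont {u : V n → Fin N → ℂ} (h : ContDiff ℝ ∞ u) (i : Fin n) : Continuous (pd i u) :=
  (contDiff_pdG h i).continuous

/-- Poincaré inequality, vector valued. -/
theorem poinV {Ω : Set (V n)} (hO : IsOpen Ω) (hb : Bornology.IsBounded Ω) (j₀ : Fin n) {R : ℝ}
    (hR : ∀ x ∈ Ω, |x j₀| ≤ R) {v : V n → Fin N → ℂ} (hv : ContDiff ℝ ∞ v)
    (h0 : ∀ x ∈ frontier Ω, v x = 0) :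
    ∫ x in Ω, ll (v x) ≤ 4 * R ^ 2 * ∫ x in Ω, dd (fun i => pd i v x) := by
  have hre : ∀ b, ContDiff ℝ ∞ fun x => (v x b).re := fun b =>
    Complex.reCLM.contDiff.comp ((contDiff_pi.1 hv) b)
  have him : ∀ b, ContDiff ℝ ∞ fun x => (v x b).im := fun b =>
    Complex.imCLM.contDiff.comp ((contDiff_pi.1 hv) b)
  have cr : ∀ b, Continuous fun x => ∑ j, pd j (fun y => (v y b).re) x ^ 2 := fun b =>
    continuous_finsetSum _ fun j _ => (contDiff_pdG (hre b) j).continuous.pow 2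
  have ci : ∀ b, Continuous fun x => ∑ j, pd j (fun y => (v y b).im) x ^ 2 := fun b =>
    continuous_finsetSum _ fun j _ => (contDiff_pdG (him b) j).continuous.pow 2
  have e1 : ∫ x in Ω, ll (v x) =
      ∑ b, ((∫ x in Ω, (v x b).re ^ 2) + ∫ x in Ω, (v x b).im ^ 2) := by
    have h1 : ∀ x, ll (v x) = ∑ b, ((v x b).re ^ 2 + (v x b).im ^ 2) := fun x =>
      Finset.sum_congr rfl fun b _ => nsq _
    simp only [h1]
    have c1 : ∀ b, Continuous fun x => (v x b).re ^ 2 + (v x b).im ^ 2 := fun b =>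
      ((hre b).continuous.pow 2).add ((him b).continuous.pow 2)
    rw [integral_finsetSum _ fun b _ => ion hb (c1 b)]
    refine Finset.sum_congr rfl fun b _ => ?_
    have c2 : Continuous fun x => (v x b).re ^ 2 := (hre b).continuous.pow 2
    have c3 : Continuous fun x => (v x b).im ^ 2 := (him b).continuous.pow 2
    exact integral_add (ion hb c2) (ion hb c3)
  have e2 : ∫ x in Ω, dd (fun i => pd i v x) =
      ∑ b, ((∫ x in Ω, ∑ j, pd j (fun y => (v y b).re) x ^ 2) +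
        ∫ x in Ω, ∑ j, pd j (fun y => (v y b).im) x ^ 2) := by
    have h1 : ∀ x, dd (fun i => pd i v x) = ∑ b, (∑ j, pd j (fun y => (v y b).re) x ^ 2 +
        ∑ j, pd j (fun y => (v y b).im) x ^ 2) := by
      intro x
      unfold dd
      rw [Finset.sum_comm]
      refine Finset.sum_congr rfl fun b _ => ?_
      rw [← Finset.sum_add_distrib]
      refine Finset.sum_congr rfl fun i _ => ?_
      rw [nsq, pd_re hv, pd_im hv]
    simp only [h1]
    have c1 : ∀ b, Continuous fun x => ∑ j, pd j (fun y => (v y b).re) x ^ 2 +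
        ∑ j, pd j (fun y => (v y b).im) x ^ 2 := fun b => (cr b).add (ci b)
    rw [integral_finsetSum _ fun b _ => ion hb (c1 b)]
    refine Finset.sum_congr rfl fun b _ => ?_
    exact integral_add (ion hb (cr b)) (ion hb (ci b))
  rw [e1, e2, Finset.mul_sum]
  refine Finset.sum_le_sum fun b _ => ?_
  rw [mul_add]
  exact add_le_add
    (poin hO hb j₀ hR (hre b) fun x hx => by rw [h0 x hx]; simp)
    (poin hO hb j₀ hR (him b) fun x hx => by rw [h0 x hx]; simp)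

/-- The energy. -/
theorem en_re {Ω : Set (V n)} (hb : Bornology.IsBounded Ω) {g : MF n} (hg : SmM g)
    (hp : ∀ x, (g x).PosDef) {A : Cn n N} (hA : SmU A) {u : V n → Fin N → ℂ}
    (hu : ContDiff ℝ ∞ u) : (en Ω g A u u).re =
      ∫ x in Ω, (qf (sg g x) (fun i => cd A i u x) (fun i => cd A i u x)).re := by
  rw [en_eq]
  exact (integral_re (𝕜 := ℂ) (intOn hb (qf_cont hg hp hA hu hu))).symm

/-- Minimality. -/
theorem mini {Ω : Set (V n)} (hb : Bornology.IsBounded Ω) (hO : IsOpen Ω) {g : MF n} (hg : SmM g)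
    (hp : ∀ x, (g x).PosDef) {A : Cn n N} (hA : SmU A) {F u w : V n → Fin N → ℂ}
    (hu : Hr Ω g A F u) (hw : ContDiff ℝ ∞ w) (hwf : ∀ x ∈ frontier Ω, w x = F x) :
    (en Ω g A u u).re ≤ (en Ω g A w w).re := by
  have hφ : ContDiff ℝ ∞ fun x => w x - u x := hw.sub hu.1
  have h1 := hu.2.2 _ hφ fun x hx => by rw [hwf x hx, hu.2.1 x hx, sub_self]
  have h2 := h1
  rw [en_sub hb hg hp hA hu.1 hw hu.1, sub_eq_zero] at h2
  have h3 := en_sub hb hg hp hA hφ hw hu.1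
  have h4 : en Ω g A (fun x => w x - u x) u = 0 := by
    rw [H924.en_star hp, h1, star_zero]
  have h5 : en Ω g A (fun x => w x - u x) w =
      star (en Ω g A w w - star (en Ω g A u w)) := by
    rw [H924.en_star hp, en_sub hb hg hp hA hw hw hu.1, H924.en_star hp A w u]
  rw [h4, h5, sub_zero, h2] at h3
  have h6 : 0 ≤ (en Ω g A (fun x => w x - u x) (fun x => w x - u x)).re := by
    rw [en_re hb hg hp hA hφ]
    exact setIntegral_nonneg hO.measurableSet fun x _ => (qf_nonneg (posDef_sg hp x) _).1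
  rw [h3] at h6
  simp only [Complex.star_def, map_sub, Complex.conj_conj, Complex.sub_re, Complex.conj_re] at h6
  linarith

section cmp

variable {Ω : Set (V n)} (hO : IsOpen Ω) (hb : Bornology.IsBounded Ω) {ψ : V n → ℝ}
  (hψ : Continuous ψ) {g : MF n} (hg : SmM g) (hp : ∀ x, (g x).PosDef) {A : Cn n N} (hA : SmU A)
  {δ : ℝ} (hδ : 0 ≤ δ) (hn : ∀ x ∈ Ω, ∀ i j, |sg g x i j - sc ψ x i j| ≤ δ)
  (hAn : ∀ x ∈ Ω, ∀ i a b, ‖A i x a b‖ ≤ δ)

include hO hb hψ hg hp hA hn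

theorem en_cmp {u : V n → Fin N → ℂ} (hu : ContDiff ℝ ∞ u) :
    (en Ω g A u u).re ≤ (∫ x in Ω, ψ x * dd (fun i => cd A i u x)) +
        δ * n * ∫ x in Ω, dd (fun i => cd A i u x) ∧
    (∫ x in Ω, ψ x * dd (fun i => cd A i u x)) ≤ (en Ω g A u u).re +
        δ * n * ∫ x in Ω, dd (fun i => cd A i u x) := by
  have c0 : Continuous fun x => dd (fun i => cd A i u x) :=
    dd_cont fun i => (contDiff_cd hA hu i).continuous
  have c1 : Continuous fun x => ψ x * dd (fun i => cd A i u x) := hψ.mul c0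
  have c2 : Continuous fun x => (qf (sg g x) (fun i => cd A i u x) (fun i => cd A i u x)).re :=
    Complex.continuous_re.comp (qf_cont hg hp hA hu hu)
  have c3 : Continuous fun x => δ * n * dd (fun i => cd A i u x) := continuous_const.mul c0
  have c4 : Continuous fun x => ψ x * dd (fun i => cd A i u x) +
      δ * n * dd (fun i => cd A i u x) := c1.add c3
  have c5 : Continuous fun x => (qf (sg g x) (fun i => cd A i u x) (fun i => cd A i u x)).re +
      δ * n * dd (fun i => cd A i u x) := c2.add c3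
  rw [en_re hb hg hp hA hu, ← integral_const_mul, ← integral_add (ion hb c1) (ion hb c3),
    ← integral_add (ion hb c2) (ion hb c3)]
  constructor
  · refine setIntegral_mono_on (ion hb c2) (ion hb c4) hO.measurableSet fun x hx => ?_
    have := (abs_le.1 (qf_near (hn x hx) fun i => cd A i u x)).2
    linarith
  · refine setIntegral_mono_on (ion hb c1) (ion hb c5) hO.measurableSet fun x hx => ?_
    have := (abs_le.1 (qf_near (hn x hx) fun i => cd A i u x)).1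
    linarith

end cmp

/-- Upper bound. -/
theorem upper {Ω : Set (V n)} (hO : IsOpen Ω) (hb : Bornology.IsBounded Ω) {ψ : V n → ℝ}
    (hψ : Continuous ψ) {μ : ℝ} (hμ : 0 < μ) (hψμ : ∀ x ∈ Ω, μ ≤ ψ x) (b₀ : Fin N) {f : V n → ℝ}
    (hf : ContDiff ℝ ∞ f) {η : ℝ} (hη : 0 < η) : ∃ ε > 0, ∀ δ : ℝ, 0 ≤ δ → δ ≤ ε →
    ∀ (g : MF n) (A : Cn n N), SmM g → (∀ x, (g x).PosDef) → SmU A →
    (∀ x ∈ Ω, ∀ i j, |sg g x i j - sc ψ x i j| ≤ δ) → (∀ x ∈ Ω, ∀ i a b, ‖A i x a b‖ ≤ δ) →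
    ∀ u : V n → Fin N → ℂ, Hr Ω g A (ev b₀ f) u → (en Ω g A u u).re ≤ En Ω (sc ψ) f + η := by
  have hΩm := hO.measurableSet
  obtain ⟨M, hM0, hM⟩ : ∃ M : ℝ, 0 ≤ M ∧ ∀ x ∈ Ω, ψ x ≤ M := by
    obtain ⟨C, hC⟩ := hb.isCompact_closure.exists_bound_of_continuousOn hψ.continuousOn
    refine ⟨max C 0, le_max_right _ _, fun x hx => ?_⟩
    exact (le_abs_self _).trans ((hC x (subset_closure hx)).trans (le_max_left _ _))
  have hlt : En Ω (sc ψ) f < En Ω (sc ψ) f + η / 3 := by linarith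
  obtain ⟨e, ⟨w, hw, hwf, rfl⟩, hwe⟩ := exists_lt_of_csInf_lt
    (⟨_, f, hf, fun _ _ => rfl, rfl⟩ : {e | ∃ u : V n → ℝ, ContDiff ℝ ∞ u ∧
      (∀ x ∈ frontier Ω, u x = f x) ∧ e = rb Ω (sc ψ) u u}.Nonempty) hlt
  have hrb : rb Ω (sc ψ) w w = ∫ x in Ω, ψ x * ∑ i, pd i w x ^ 2 := by
    unfold rb
    congr 1
    funext x
    exact H292.EC.quad_sc ψ x fun i => pd i w x
  have cg : Continuous fun x => ∑ i, pd i w x ^ 2 :=
    continuous_finsetSum _ fun i _ => (contDiff_pdG hw i).continuous.pow 2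
  have cψg : Continuous fun x => ψ x * ∑ i, pd i w x ^ 2 := hψ.mul cg
  have cw : Continuous fun x => w x ^ 2 := hw.continuous.pow 2
  set Wp := ∫ x in Ω, ψ x * ∑ i, pd i w x ^ 2 with hWp
  set W0 := ∫ x in Ω, ∑ i, pd i w x ^ 2 with hW0
  set W2 := ∫ x in Ω, w x ^ 2 with hW2
  have Wp0 : 0 ≤ Wp := setIntegral_nonneg hΩm fun x hx =>
    mul_nonneg (hμ.le.trans (hψμ x hx)) (Finset.sum_nonneg fun i _ => sq_nonneg _)
  have W00 : 0 ≤ W0 := setIntegral_nonneg hΩm fun x hx => Finset.sum_nonneg fun i _ => sq_nonneg _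
  have W20 : 0 ≤ W2 := setIntegral_nonneg hΩm fun x hx => sq_nonneg _
  set τ := min 1 (η / (3 * (Wp + 1))) with hτ
  have hτ0 : 0 < τ := lt_min one_pos (by positivity)
  have hτ1 : τ ≤ 1 := min_le_left _ _
  have hτW : τ * Wp ≤ η / 3 := by
    calc τ * Wp ≤ η / (3 * (Wp + 1)) * Wp := mul_le_mul_of_nonneg_right (min_le_right _ _) Wp0
      _ = η / 3 * (Wp / (Wp + 1)) := by field_simp
      _ ≤ η / 3 * 1 := by
          refine mul_le_mul_of_nonneg_left ?_ (by positivity)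
          rw [div_le_one (by positivity)]
          linarith
      _ = η / 3 := mul_one _
  set κ : ℝ := n * (N * N) with hκ
  have hκ0 : 0 ≤ κ := by positivity
  set C := 2 * n * W0 + (1 + 1 / τ) * κ * (M + n) * W2 with hC
  have hC0 : 0 ≤ C := by positivity
  refine ⟨min 1 (η / (3 * (C + 1))), lt_min one_pos (by positivity), ?_⟩
  intro δ hδ0 hδ g A hg hp hA hn hAn u hu
  have hδ1 : δ ≤ 1 := hδ.trans (min_le_left _ _)
  have hδC : δ * C ≤ η / 3 := by
    calc δ * C ≤ η / (3 * (C + 1)) * C :=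
          mul_le_mul_of_nonneg_right (hδ.trans (min_le_right _ _)) hC0
      _ = η / 3 * (C / (C + 1)) := by field_simp
      _ ≤ η / 3 * 1 := by
          refine mul_le_mul_of_nonneg_left ?_ (by positivity)
          rw [div_le_one (by positivity)]
          linarith
      _ = η / 3 := mul_one _
  have hws := ev_cd b₀ hw
  have h1 := mini hb hO hg hp hA hu hws fun x hx => by
    funext b
    simp only [ev, hwf x hx]
  have h2 := (en_cmp hO hb hψ hg hp hA hn hws).1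
  have c0 : Continuous fun x => dd (fun i => cd A i (ev b₀ w) x) :=
    dd_cont fun i => (contDiff_cd hA hws i).continuous
  have c1 : Continuous fun x => ψ x * dd (fun i => cd A i (ev b₀ w) x) := hψ.mul c0
  have c2 : Continuous fun x => δ * n * dd (fun i => cd A i (ev b₀ w) x) :=
    continuous_const.mul c0
  have h3 : (∫ x in Ω, ψ x * dd (fun i => cd A i (ev b₀ w) x)) +
      δ * n * ∫ x in Ω, dd (fun i => cd A i (ev b₀ w) x) ≤
      ∫ x in Ω, (((1 + τ) * (ψ x * ∑ i, pd i w x ^ 2) + 2 * (δ * n) * ∑ i, pd i w x ^ 2) +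
        (1 + 1 / τ) * κ * δ ^ 2 * (M + n) * w x ^ 2) := by
    rw [← integral_const_mul, ← integral_add (ion hb c1) (ion hb c2)]
    have c3 : Continuous fun x => ψ x * dd (fun i => cd A i (ev b₀ w) x) +
        δ * n * dd (fun i => cd A i (ev b₀ w) x) := c1.add c2
    have c4 : Continuous fun x => ((1 + τ) * (ψ x * ∑ i, pd i w x ^ 2) +
        2 * (δ * n) * ∑ i, pd i w x ^ 2) + (1 + 1 / τ) * κ * δ ^ 2 * (M + n) * w x ^ 2 :=
      ((continuous_const.mul cψg).add (continuous_const.mul cg)).add (continuous_const.mul cw)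
    refine setIntegral_mono_on (ion hb c3) (ion hb c4) hΩm fun x hx => ?_
    have h4 := dd_up (A := A) (u := ev b₀ w) hτ0 (hAn x hx)
    rw [dd_pd_ev b₀ hw, ll_ev] at h4
    have h5 : 0 ≤ ψ x := hμ.le.trans (hψμ x hx)
    have h6 := hM x hx
    have h7 : 0 ≤ δ * n := by positivity
    have h8 : ψ x + δ * n ≤ M + n := by
      have : δ * n ≤ 1 * n := mul_le_mul_of_nonneg_right hδ1 (Nat.cast_nonneg n)
      linarith
    have h9 : 0 ≤ (1 + 1 / τ) * (κ * δ ^ 2 * w x ^ 2) := by positivity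
    have h10 := mul_le_mul_of_nonneg_left h4 (add_nonneg h5 h7)
    have h11 := mul_le_mul_of_nonneg_right h8 h9
    have h12 : 0 ≤ ∑ i, pd i w x ^ 2 := Finset.sum_nonneg fun i _ => sq_nonneg _
    have h13 : (1 + τ) * (δ * n * ∑ i, pd i w x ^ 2) ≤ 2 * (δ * n * ∑ i, pd i w x ^ 2) :=
      mul_le_mul_of_nonneg_right (by linarith) (mul_nonneg h7 h12)
    calc ψ x * dd (fun i => cd A i (ev b₀ w) x) + δ * n * dd (fun i => cd A i (ev b₀ w) x)
        = (ψ x + δ * n) * dd (fun i => cd A i (ev b₀ w) x) := by ring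
      _ ≤ (ψ x + δ * n) * ((1 + τ) * ∑ i, pd i w x ^ 2 +
          (1 + 1 / τ) * (n * (N * (δ ^ 2 * (N * w x ^ 2))))) := h10
      _ = (1 + τ) * (ψ x * ∑ i, pd i w x ^ 2) + (1 + τ) * (δ * n * ∑ i, pd i w x ^ 2) +
          (ψ x + δ * n) * ((1 + 1 / τ) * (κ * δ ^ 2 * w x ^ 2)) := by rw [hκ]; ring
      _ ≤ (1 + τ) * (ψ x * ∑ i, pd i w x ^ 2) + 2 * (δ * n * ∑ i, pd i w x ^ 2) +
          (M + n) * ((1 + 1 / τ) * (κ * δ ^ 2 * w x ^ 2)) := by linarith
      _ = _ := by ring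
  have c5 : Continuous fun x => (1 + τ) * (ψ x * ∑ i, pd i w x ^ 2) := continuous_const.mul cψg
  have c6 : Continuous fun x => 2 * (δ * n) * ∑ i, pd i w x ^ 2 := continuous_const.mul cg
  have c7 : Continuous fun x => (1 + 1 / τ) * κ * δ ^ 2 * (M + n) * w x ^ 2 :=
    continuous_const.mul cw
  have c8 : Continuous fun x => (1 + τ) * (ψ x * ∑ i, pd i w x ^ 2) +
    2 * (δ * n) * ∑ i, pd i w x ^ 2 := c5.add c6
  rw [integral_add (ion hb c8) (ion hb c7), integral_add (ion hb c5) (ion hb c6),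
    integral_const_mul, integral_const_mul, integral_const_mul, ← hWp, ← hW0, ← hW2] at h3
  have h14 : δ ^ 2 ≤ δ := by nlinarith
  have h15 : (1 + 1 / τ) * κ * (M + n) * W2 * δ ^ 2 ≤ (1 + 1 / τ) * κ * (M + n) * W2 * δ :=
    mul_le_mul_of_nonneg_left h14 (by positivity)
  have h16 : 2 * (δ * n) * W0 + (1 + 1 / τ) * κ * δ ^ 2 * (M + n) * W2 ≤ δ * C := by
    rw [hC]
    nlinarith
  rw [hrb] at hwe
  have h17 : sInf {e | ∃ u : V n → ℝ, ContDiff ℝ ∞ u ∧
      (∀ x ∈ frontier Ω, u x = f x) ∧ e = rb Ω (sc ψ) u u} = En Ω (sc ψ) f := rfl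
  linarith

theorem frac_le {a C η : ℝ} (ha : 0 ≤ a) (hC : 0 ≤ C) (h : a ≤ η / (2 * (C + 1))) (hη : 0 < η) :
    a * C ≤ η / 2 := by
  calc a * C ≤ η / (2 * (C + 1)) * C := mul_le_mul_of_nonneg_right h hC
    _ = η / 2 * (C / (C + 1)) := by field_simp
    _ ≤ η / 2 * 1 := by
        refine mul_le_mul_of_nonneg_left ?_ (by positivity)
        rw [div_le_one (by positivity)]
        linarith
    _ = η / 2 := mul_one _

set_option maxHeartbeats 2000000 in
/-- Lower bound. -/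
theorem lower {Ω : Set (V n)} (hO : IsOpen Ω) (hb : Bornology.IsBounded Ω) {ψ : V n → ℝ}
    (hψ : Continuous ψ) {μ : ℝ} (hμ : 0 < μ) (hψμ : ∀ x ∈ Ω, μ ≤ ψ x) (j₀ : Fin n) (b₀ : Fin N)
    {f : V n → ℝ} (hf : ContDiff ℝ ∞ f) {η : ℝ} (hη : 0 < η) {K : ℝ} (hK : 0 ≤ K) :
    ∃ ε > 0, ∀ δ : ℝ, 0 ≤ δ → δ ≤ ε →
    ∀ (g : MF n) (A : Cn n N), SmM g → (∀ x, (g x).PosDef) → SmU A →
    (∀ x ∈ Ω, ∀ i j, |sg g x i j - sc ψ x i j| ≤ δ) → (∀ x ∈ Ω, ∀ i a b, ‖A i x a b‖ ≤ δ) →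
    ∀ u : V n → Fin N → ℂ, Hr Ω g A (ev b₀ f) u → (en Ω g A u u).re ≤ K →
      En Ω (sc ψ) f ≤ (en Ω g A u u).re + η := by
  have hΩm := hO.measurableSet
  obtain ⟨M, hM0, hM⟩ : ∃ M : ℝ, 0 ≤ M ∧ ∀ x ∈ Ω, ψ x ≤ M := by
    obtain ⟨C, hC⟩ := hb.isCompact_closure.exists_bound_of_continuousOn hψ.continuousOn
    refine ⟨max C 0, le_max_right _ _, fun x hx => ?_⟩
    exact (le_abs_self _).trans ((hC x (subset_closure hx)).trans (le_max_left _ _))
  obtain ⟨R, hR⟩ : ∃ R : ℝ, ∀ x ∈ Ω, |x j₀| ≤ R := by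
    obtain ⟨C, hC⟩ := hb.exists_norm_le
    exact ⟨C, fun x hx => (norm_le_pi_norm x j₀).trans (hC x hx)⟩
  have cf1 : Continuous fun x => ∑ i, pd i f x ^ 2 :=
    continuous_finsetSum _ fun i _ => (contDiff_pdG hf i).continuous.pow 2
  have cf2 : Continuous fun x => f x ^ 2 := hf.continuous.pow 2
  set F1 := ∫ x in Ω, ∑ i, pd i f x ^ 2 with hF1
  set F2 := ∫ x in Ω, f x ^ 2 with hF2
  have F10 : 0 ≤ F1 := setIntegral_nonneg hΩm fun x hx => Finset.sum_nonneg fun i _ => sq_nonneg _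
  have F20 : 0 ≤ F2 := setIntegral_nonneg hΩm fun x hx => sq_nonneg _
  set Cp := 4 * R ^ 2 with hCp
  have Cp0 : 0 ≤ Cp := by positivity
  set κ : ℝ := n * (N * N) with hκ
  have hκ0 : 0 ≤ κ := by positivity
  set τ := min 1 (η / (2 * (K + 1))) with hτ
  have hτ0 : 0 < τ := lt_min one_pos (by positivity)
  have hτ1 : τ ≤ 1 := min_le_left _ _
  have hτK : τ * K ≤ η / 2 := frac_le hτ0.le hK (min_le_right _ _) hη
  set Λ := 16 * Cp * (2 * K / μ) + 8 * Cp * F1 + 4 * F2 with hΛ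
  have hΛ0 : 0 ≤ Λ := by positivity
  set C := 4 * n * K / μ + (1 + 1 / τ) * κ * M * Λ with hC
  have hC0 : 0 ≤ C := by positivity
  refine ⟨min (min 1 (μ / (2 * (n + 1)))) (min (1 / (16 * Cp * κ + 1)) (η / (2 * (C + 1)))),
    by positivity, ?_⟩
  intro δ hδ0 hδ g A hg hp hA hn hAn u hu hPK
  have hδ1 : δ ≤ 1 := hδ.trans ((min_le_left _ _).trans (min_le_left _ _))
  have hδμ : δ ≤ μ / (2 * (n + 1)) := hδ.trans ((min_le_left _ _).trans (min_le_right _ _))
  have hδκ : δ ≤ 1 / (16 * Cp * κ + 1) := hδ.trans ((min_le_right _ _).trans (min_le_left _ _))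
  have hδC : δ * C ≤ η / 2 :=
    frac_le hδ0 hC0 (hδ.trans ((min_le_right _ _).trans (min_le_right _ _))) hη
  have hδn : δ * n ≤ μ / 2 := by
    rw [le_div_iff₀ (by positivity)] at hδμ
    nlinarith
  have hδ2 : δ ^ 2 ≤ δ := by nlinarith
  have hδκ' : 8 * Cp * κ * δ ^ 2 ≤ 1 / 2 := by
    rw [le_div_iff₀ (by positivity)] at hδκ
    have : 8 * Cp * κ * δ ^ 2 ≤ 8 * Cp * κ * δ := mul_le_mul_of_nonneg_left hδ2 (by positivity)
    nlinarith
  have hus := hu.1
  have huf := hu.2.1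
  have hfs := ev_cd b₀ hf
  -- continuity
  have cD : Continuous fun x => dd (fun i => cd A i u x) :=
    dd_cont fun i => (contDiff_cd hA hus i).continuous
  have cψD : Continuous fun x => ψ x * dd (fun i => cd A i u x) := hψ.mul cD
  have cP : Continuous fun x => dd (fun i => pd i u x) := dd_cont fun i => pd_cont hus i
  have cψP : Continuous fun x => ψ x * dd (fun i => pd i u x) := hψ.mul cP
  have cL : Continuous fun x => ll (u x) := ll_cont hus.continuous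
  set P := (en Ω g A u u).re with hP
  set Dd := ∫ x in Ω, dd (fun i => cd A i u x) with hDd
  set Dp := ∫ x in Ω, ψ x * dd (fun i => cd A i u x) with hDp
  set G := ∫ x in Ω, dd (fun i => pd i u x) with hG
  set L := ∫ x in Ω, ll (u x) with hL
  have Dd0 : 0 ≤ Dd := setIntegral_nonneg hΩm fun x hx => dd_nn _
  have L0 : 0 ≤ L := setIntegral_nonneg hΩm fun x hx => ll_nn _
  have h1 : Dp ≤ P + δ * n * Dd := (en_cmp hO hb hψ hg hp hA hn hus).2
  have h2 : μ * Dd ≤ Dp := by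
    rw [hDd, hDp, ← integral_const_mul]
    have c1 : Continuous fun x => μ * dd (fun i => cd A i u x) := continuous_const.mul cD
    exact setIntegral_mono_on (ion hb c1) (ion hb cψD) hΩm fun x hx =>
      mul_le_mul_of_nonneg_right (hψμ x hx) (dd_nn _)
  have h3 : Dd ≤ 2 * K / μ := by
    rw [le_div_iff₀ hμ]
    have := mul_le_mul_of_nonneg_right hδn Dd0
    nlinarith
  -- the gradient
  have h4 : G ≤ 2 * Dd + 2 * (κ * δ ^ 2) * L := by
    rw [hDd, hL, ← integral_const_mul, ← integral_const_mul]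
    have c1 : Continuous fun x => 2 * dd (fun i => cd A i u x) := continuous_const.mul cD
    have c2 : Continuous fun x => 2 * (κ * δ ^ 2) * ll (u x) := continuous_const.mul cL
    have c3 : Continuous fun x => 2 * dd (fun i => cd A i u x) + 2 * (κ * δ ^ 2) * ll (u x) :=
      c1.add c2
    rw [← integral_add (ion hb c1) (ion hb c2)]
    refine setIntegral_mono_on (ion hb cP) (ion hb c3) hΩm fun x hx => ?_
    have h := dd_low (A := A) (u := u) one_pos (hAn x hx)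
    rw [hκ]
    calc _ ≤ _ := h
      _ = _ := by ring
  have h5 : (∫ x in Ω, ψ x * dd (fun i => pd i u x)) ≤
      (1 + τ) * Dp + (1 + 1 / τ) * (κ * δ ^ 2 * M) * L := by
    rw [hDp, hL, ← integral_const_mul, ← integral_const_mul]
    have c1 : Continuous fun x => (1 + τ) * (ψ x * dd (fun i => cd A i u x)) :=
      continuous_const.mul cψD
    have c2 : Continuous fun x => (1 + 1 / τ) * (κ * δ ^ 2 * M) * ll (u x) :=
      continuous_const.mul cL
    have c3 : Continuous fun x => (1 + τ) * (ψ x * dd (fun i => cd A i u x)) +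
      (1 + 1 / τ) * (κ * δ ^ 2 * M) * ll (u x) := c1.add c2
    rw [← integral_add (ion hb c1) (ion hb c2)]
    refine setIntegral_mono_on (ion hb cψP) (ion hb c3) hΩm fun x hx => ?_
    have h := dd_low (A := A) (u := u) hτ0 (hAn x hx)
    have h0 : 0 ≤ ψ x := hμ.le.trans (hψμ x hx)
    have h' := mul_le_mul_of_nonneg_left h h0
    have h6 : 0 ≤ (1 + 1 / τ) * (κ * δ ^ 2 * ll (u x)) := by
      have := ll_nn (u x)
      positivity
    have h7 := mul_le_mul_of_nonneg_right (hM x hx) h6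
    calc _ ≤ _ := h'
      _ = (1 + τ) * (ψ x * dd (fun i => cd A i u x)) +
          ψ x * ((1 + 1 / τ) * (κ * δ ^ 2 * ll (u x))) := by rw [hκ]; ring
      _ ≤ (1 + τ) * (ψ x * dd (fun i => cd A i u x)) +
          M * ((1 + 1 / τ) * (κ * δ ^ 2 * ll (u x))) := by linarith
      _ = _ := by ring
  -- Poincaré
  have hv : ContDiff ℝ ∞ fun x => u x - ev b₀ f x := hus.sub hfs
  have h6 := poinV hO hb j₀ hR hv fun x hx => by rw [huf x hx, sub_self]
  have h7 : (∫ x in Ω, dd (fun i => pd i (fun x => u x - ev b₀ f x) x)) ≤ 2 * G + 2 * F1 := by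
    rw [hG, hF1, ← integral_const_mul, ← integral_const_mul]
    have c1 : Continuous fun x => 2 * dd (fun i => pd i u x) := continuous_const.mul cP
    have c2 : Continuous fun x => 2 * ∑ i, pd i f x ^ 2 := continuous_const.mul cf1
    have c3 : Continuous fun x => 2 * dd (fun i => pd i u x) + 2 * ∑ i, pd i f x ^ 2 := c1.add c2
    have c4 : Continuous fun x => dd (fun i => pd i (fun x => u x - ev b₀ f x) x) :=
      dd_cont fun i => pd_cont hv i
    rw [← integral_add (ion hb c1) (ion hb c2)]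
    refine setIntegral_mono_on (ion hb c4) (ion hb c3) hΩm fun x hx => ?_
    rw [← dd_pd_ev b₀ hf x]
    unfold dd
    rw [Finset.mul_sum, Finset.mul_sum, ← Finset.sum_add_distrib]
    refine Finset.sum_le_sum fun i _ => ?_
    rw [Finset.mul_sum, Finset.mul_sum, ← Finset.sum_add_distrib]
    refine Finset.sum_le_sum fun b _ => ?_
    have e : pd i (fun x => u x - ev b₀ f x) x b = pd i u x b + -(pd i (ev b₀ f) x b) := by
      rw [H158.pd_sub (dfa hus x) (dfa hfs x), Pi.sub_apply, sub_eq_add_neg]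
    show ‖pd i (fun x => u x - ev b₀ f x) x b‖ ^ 2 ≤ _
    rw [e]
    have := young one_pos (pd i u x b) (-(pd i (ev b₀ f) x b))
    rw [norm_neg] at this
    linarith
  have h8 : L ≤ 2 * (∫ x in Ω, ll (u x - ev b₀ f x)) + 2 * F2 := by
    rw [hL, hF2, ← integral_const_mul, ← integral_const_mul]
    have c0 : Continuous fun x => ll (u x - ev b₀ f x) := ll_cont hv.continuous
    have c1 : Continuous fun x => 2 * ll (u x - ev b₀ f x) := continuous_const.mul c0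
    have c2 : Continuous fun x => 2 * f x ^ 2 := continuous_const.mul cf2
    have c3 : Continuous fun x => 2 * ll (u x - ev b₀ f x) + 2 * f x ^ 2 := c1.add c2
    rw [← integral_add (ion hb c1) (ion hb c2)]
    refine setIntegral_mono_on (ion hb cL) (ion hb c3) hΩm fun x hx => ?_
    rw [← ll_ev b₀ f x]
    unfold ll
    rw [Finset.mul_sum, Finset.mul_sum, ← Finset.sum_add_distrib]
    refine Finset.sum_le_sum fun b _ => ?_
    have e : u x b = (u x - ev b₀ f x) b + ev b₀ f x b := by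
      rw [Pi.sub_apply, sub_add_cancel]
    have := young one_pos ((u x - ev b₀ f x) b) (ev b₀ f x b)
    rw [← e] at this
    linarith
  have h9 : L ≤ Λ := by
    have a1 : L ≤ 2 * (Cp * (2 * G + 2 * F1)) + 2 * F2 := by
      have := mul_le_mul_of_nonneg_left h7 Cp0
      linarith
    have a2 : Cp * G ≤ Cp * (2 * Dd + 2 * (κ * δ ^ 2) * L) := mul_le_mul_of_nonneg_left h4 Cp0
    have a3 : 8 * Cp * κ * δ ^ 2 * L ≤ 1 / 2 * L := mul_le_mul_of_nonneg_right hδκ' L0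
    have a4 : Cp * Dd ≤ Cp * (2 * K / μ) := mul_le_mul_of_nonneg_left h3 Cp0
    rw [hΛ]
    nlinarith
  -- the energy of the real part
  have hr : ContDiff ℝ ∞ fun x => (u x b₀).re :=
    Complex.reCLM.contDiff.comp ((contDiff_pi.1 hus) b₀)
  have hrb : rb Ω (sc ψ) (fun x => (u x b₀).re) (fun x => (u x b₀).re) =
      ∫ x in Ω, ψ x * ∑ i, pd i (fun x => (u x b₀).re) x ^ 2 := by
    unfold rb
    congr 1
    funext x
    exact H292.EC.quad_sc ψ x fun i => pd i (fun x => (u x b₀).re) x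
  have h10 : En Ω (sc ψ) f ≤ rb Ω (sc ψ) (fun x => (u x b₀).re) (fun x => (u x b₀).re) := by
    refine csInf_le ⟨0, ?_⟩ ⟨_, hr, fun x hx => ?_, rfl⟩
    · rintro e ⟨w, hw, _, rfl⟩
      unfold rb
      refine setIntegral_nonneg hΩm fun x hx => ?_
      have q := H292.EC.quad_sc ψ x fun i => pd i w x
      rw [q]
      exact mul_nonneg (hμ.le.trans (hψμ x hx)) (Finset.sum_nonneg fun i _ => sq_nonneg _)
    · rw [huf x hx]
      simp [ev]
  have h11 : rb Ω (sc ψ) (fun x => (u x b₀).re) (fun x => (u x b₀).re) ≤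
      ∫ x in Ω, ψ x * dd (fun i => pd i u x) := by
    rw [hrb]
    have c1 : Continuous fun x => ψ x * ∑ i, pd i (fun x => (u x b₀).re) x ^ 2 :=
      hψ.mul (continuous_finsetSum _ fun i _ => (contDiff_pdG hr i).continuous.pow 2)
    refine setIntegral_mono_on (ion hb c1) (ion hb cψP) hΩm fun x hx => ?_
    refine mul_le_mul_of_nonneg_left ?_ (hμ.le.trans (hψμ x hx))
    unfold dd
    refine Finset.sum_le_sum fun i _ => ?_
    rw [pd_re hus]
    refine le_trans ?_ (Finset.single_le_sum (f := fun b => ‖pd i u x b‖ ^ 2)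
      (fun _ _ => sq_nonneg _) (Finset.mem_univ b₀))
    show (pd i u x b₀).re ^ 2 ≤ ‖pd i u x b₀‖ ^ 2
    rw [nsq]
    linarith [sq_nonneg (pd i u x b₀).im]
  have h12 : (1 + τ) * Dp ≤ P + τ * K + 4 * n * K / μ * δ := by
    have a1 : δ * n * Dd ≤ δ * n * (2 * K / μ) := mul_le_mul_of_nonneg_left h3 (by positivity)
    have a2 : (1 + τ) * Dp ≤ (1 + τ) * (P + δ * n * (2 * K / μ)) :=
      mul_le_mul_of_nonneg_left (by linarith) (by positivity)
    have a3 : τ * P ≤ τ * K := mul_le_mul_of_nonneg_left hPK hτ0.le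
    have a4 : (1 + τ) * (δ * n * (2 * K / μ)) ≤ 2 * (δ * n * (2 * K / μ)) :=
      mul_le_mul_of_nonneg_right (by linarith) (by positivity)
    have a5 : 2 * (δ * n * (2 * K / μ)) = 4 * n * K / μ * δ := by ring
    linarith
  have h13 : (1 + 1 / τ) * (κ * δ ^ 2 * M) * L ≤ (1 + 1 / τ) * κ * M * Λ * δ := by
    calc (1 + 1 / τ) * (κ * δ ^ 2 * M) * L ≤ (1 + 1 / τ) * (κ * δ ^ 2 * M) * Λ :=
          mul_le_mul_of_nonneg_left h9 (by positivity)
      _ = (1 + 1 / τ) * κ * M * Λ * δ ^ 2 := by ring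
      _ ≤ (1 + 1 / τ) * κ * M * Λ * δ := mul_le_mul_of_nonneg_left hδ2 (by positivity)
  have h14 : 4 * n * K / μ * δ + (1 + 1 / τ) * κ * M * Λ * δ = δ * C := by
    rw [hC]
    ring
  linarith

/-- One inequality. -/
theorem en_one {Ω : Set (V n)} (hO : IsOpen Ω) (hb : Bornology.IsBounded Ω) (j₀ : Fin n)
    (b₀ : Fin N) (g₁ g : ℕ → MF n) (A₁ A : ℕ → Cn n N) {σ ψ : V n → ℝ} {μ : ℝ}
    (hg₁ : ∀ m, SmM (g₁ m)) (hg : ∀ m, SmM (g m)) (hp₁ : ∀ m x, (g₁ m x).PosDef)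
    (hp : ∀ m x, (g m x).PosDef) (hA₁ : ∀ m, SmU (A₁ m)) (hA : ∀ m, SmU (A m))
    (hσ : Continuous σ) (hψ : Continuous ψ) (hμ : 0 < μ) (hσμ : ∀ x ∈ Ω, μ ≤ σ x)
    (hψμ : ∀ x ∈ Ω, μ ≤ ψ x)
    (hlim : ∀ ε > 0, ∃ M : ℕ, ∀ m ≥ M, ∀ x ∈ Ω, (∀ i j, |sg (g₁ m) x i j - sc σ x i j| ≤ ε) ∧
      (∀ i j, |sg (g m) x i j - sc ψ x i j| ≤ ε) ∧ (∀ i a b, ‖A₁ m i x a b‖ ≤ ε) ∧
      ∀ i a b, ‖A m i x a b‖ ≤ ε)
    (hD : ∀ m, SDU Ω (g₁ m) (A₁ m) (g m) (A m)) {f : V n → ℝ} (hf : ContDiff ℝ ∞ f) :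
    En Ω (sc σ) f = En Ω (sc ψ) f := by
  have key : ∀ η : ℝ, 0 < η → En Ω (sc σ) f ≤ En Ω (sc ψ) f + 2 * η ∧
      En Ω (sc ψ) f ≤ En Ω (sc σ) f + 2 * η := by
    intro η hη
    set K := max 0 (max (En Ω (sc σ) f + η) (En Ω (sc ψ) f + η)) with hK
    have hK0 : 0 ≤ K := le_max_left _ _
    obtain ⟨e1, he1, u1⟩ := upper hO hb hσ hμ hσμ b₀ hf hη
    obtain ⟨e2, he2, u2⟩ := upper hO hb hψ hμ hψμ b₀ hf hη
    obtain ⟨e3, he3, l1⟩ := lower hO hb hσ hμ hσμ j₀ b₀ hf hη hK0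
    obtain ⟨e4, he4, l2⟩ := lower hO hb hψ hμ hψμ j₀ b₀ hf hη hK0
    set δ := min (min e1 e2) (min e3 e4) with hδ
    have hδ0 : 0 < δ := lt_min (lt_min he1 he2) (lt_min he3 he4)
    have d1 : δ ≤ e1 := (min_le_left _ _).trans (min_le_left _ _)
    have d2 : δ ≤ e2 := (min_le_left _ _).trans (min_le_right _ _)
    have d3 : δ ≤ e3 := (min_le_right _ _).trans (min_le_left _ _)
    have d4 : δ ≤ e4 := (min_le_right _ _).trans (min_le_right _ _)
    obtain ⟨m, hm⟩ := hlim δ hδ0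
    have hm' := hm m le_rfl
    have hfs := ev_cd (n := n) b₀ hf
    obtain ⟨u, v, u', v', hu, hv, hu', hv', e⟩ := hD m _ _ hfs hfs
    have q1 : en Ω (g₁ m) (A₁ m) u v = en Ω (g₁ m) (A₁ m) u u := by
      have h := hu.2.2 (fun x => v x - u x) (hv.1.sub hu.1) fun x hx => by
        rw [hv.2.1 x hx, hu.2.1 x hx, sub_self]
      rwa [en_sub hb (hg₁ m) (hp₁ m) (hA₁ m) hu.1 hv.1 hu.1, sub_eq_zero] at h
    have q2 : en Ω (g m) (A m) u' v' = en Ω (g m) (A m) u' u' := by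
      have h := hu'.2.2 (fun x => v' x - u' x) (hv'.1.sub hu'.1) fun x hx => by
        rw [hv'.2.1 x hx, hu'.2.1 x hx, sub_self]
      rwa [en_sub hb (hg m) (hp m) (hA m) hu'.1 hv'.1 hu'.1, sub_eq_zero] at h
    rw [q1, q2] at e
    have a1 := u1 δ hδ0.le d1 (g₁ m) (A₁ m) (hg₁ m) (hp₁ m) (hA₁ m) (fun x hx => (hm' x hx).1)
      (fun x hx => (hm' x hx).2.2.1) u hu
    have a2 := u2 δ hδ0.le d2 (g m) (A m) (hg m) (hp m) (hA m) (fun x hx => (hm' x hx).2.1)
      (fun x hx => (hm' x hx).2.2.2) u' hu'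
    have k1 : (en Ω (g₁ m) (A₁ m) u u).re ≤ K :=
      a1.trans ((le_max_left _ _).trans (le_max_right _ _))
    have k2 : (en Ω (g m) (A m) u' u').re ≤ K :=
      a2.trans ((le_max_right _ _).trans (le_max_right _ _))
    have a3 := l1 δ hδ0.le d3 (g₁ m) (A₁ m) (hg₁ m) (hp₁ m) (hA₁ m) (fun x hx => (hm' x hx).1)
      (fun x hx => (hm' x hx).2.2.1) u hu k1
    have a4 := l2 δ hδ0.le d4 (g m) (A m) (hg m) (hp m) (hA m) (fun x hx => (hm' x hx).2.1)
      (fun x hx => (hm' x hx).2.2.2) u' hu' k2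
    rw [e] at a1 a3
    constructor <;> linarith
  refine le_antisymm ?_ ?_
  · refine le_of_forall_pos_le_add fun η hη => ?_
    have := (key (η / 2) (by positivity)).1
    linarith
  · refine le_of_forall_pos_le_add fun η hη => ?_
    have := (key (η / 2) (by positivity)).2
    linarith

/-- (JE_ECU) -/
theorem ecu : JE.RowECU := by
  intro n N hn hN Ω hO hb g₁ g A₁ A σ ψ μ hg₁ hg hp₁ hp hA₁ hA hσ hψ hμ hσμ hψμ hlim hD f hf
  exact en_one hO hb ⟨0, hn⟩ ⟨0, hN⟩ g₁ g A₁ A hg₁ hg hp₁ hp hA₁ hA hσ.continuous hψ.continuous hμ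
    hσμ hψμ hlim hD hf

end Vale.Agent.P088.H168.ECU
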